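import Vale.Agent.P137.Main

open MeasureTheory
open scoped ENNReal

namespace Vale.Agent.Results.P137.Uncentered

open Vale.Agent.P137

theorem result (d : ℕ) (hd : 1 ≤ d) : ∃ C : ℝ,
    ∀ (f : EuclideanSpace ℝ (Fin d) → ℝ) (G : EuclideanSpace ℝ (Fin d) → EuclideanSpace ℝ (Fin d)),
      Integrable f volume → Integrable G volume → HasWeakGradient f G →
      (∀ᵐ x, uncenteredMaximal f x < ⊤) ∧
      ∃ G' : EuclideanSpace ℝ (Fin d) → EuclideanSpace ℝ (Fin d),
        HasWeakGradient (fun x => (uncenteredMaximal f x).toReal) G' ∧ Integrable G' volume ∧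
          ∫ x, ‖G' x‖ ≤ C * ∫ x, ‖G x‖ :=
  uncentered_main d hd

end Vale.Agent.Results.P137.Uncentered
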